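import Mathlib

set_option autoImplicit false

/-!
The number of lattices with `n` elements is at most `exp (C n ^ (3/2))` (Kleitman and Winston):
literal statements of the pieces.
-/

namespace Vale.Agent.P183.R2.H668.KW

open Finset

/-- Any two different vertices have at most one common neighbour. -/
def C4Free {V : Type} (G : SimpleGraph V) : Prop :=
  ∀ u v x y : V, u ≠ v → G.Adj u x → G.Adj v x → G.Adj u y → G.Adj v y → x = y

/-- Row A1: counting independent sets of a locally dense relation. -/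
def StA1 : Prop :=
  ∀ (V : Type) [DecidableEq V] (H : V → V → Prop) [DecidableRel H],
    (∀ x y, H x y → H y x) → ∀ (β : ℝ) (R : ℕ), 0 ≤ β → β ≤ 1 → ∀ (B : Finset V),
    (∀ B' ⊆ B, R < B'.card → ∃ x ∈ B', β * B'.card ≤ ((B'.filter (H x)).card : ℝ)) →
    ∀ q d : ℕ, (1 - β) ^ q * B.card ≤ (R : ℝ) →
    ((B.powersetCard d).filter (fun I => ∀ x ∈ I, ∀ y ∈ I, x ≠ y → ¬ H x y)).card ≤
      ∑ s ∈ range (q + 1), B.card.choose s * R.choose (d - s)

/-- Row A2: local density of the relation of having a common neighbour. -/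
def StA2 : Prop :=
  ∀ (V : Type) [Fintype V] [DecidableEq V] (G : SimpleGraph V) [DecidableRel G.Adj], C4Free G →
    ∀ (T : Finset V), (∀ x y, G.Adj x y → x ∈ T) → ∀ δ : ℕ, 1 ≤ δ →
    (∀ x ∈ T, δ ≤ (univ.filter (fun y => G.Adj x y)).card) →
    ∀ B ⊆ T, 2 * T.card ≤ δ * B.card → B.Nonempty →
      ∃ x ∈ B, (δ : ℝ) ^ 2 / (2 * T.card) * B.card ≤
        ((B.filter (fun y => x ≠ y ∧ ∃ w, G.Adj w x ∧ G.Adj w y)).card : ℝ)

/-- The possible neighbourhoods of a vertex of least degree added to `G`. -/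
noncomputable def nbhds {V : Type} (G : SimpleGraph V) (T : Finset V) : Set (Finset V) :=
  {I | I ⊆ T ∧ (∀ x ∈ T, I.card ≤ {y | G.Adj x y}.ncard + 1) ∧
    ∀ x ∈ I, ∀ y ∈ I, x ≠ y → ¬ ∃ w, G.Adj w x ∧ G.Adj w y}

/-- Row A: few possible neighbourhoods. -/
def StA : Prop :=
  ∃ C : ℝ, 0 < C ∧ ∀ (V : Type) [Finite V] (G : SimpleGraph V), C4Free G →
    ∀ T : Finset V, (∀ x y, G.Adj x y → x ∈ T) →
      ((nbhds G T).ncard : ℝ) ≤ Real.exp (C * (T.card : ℝ) ^ (1 / 2 : ℝ))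

/-- Row B: the number of graphs without four-cycles. -/
def StB : Prop :=
  ∃ C : ℝ, 0 < C ∧ ∀ (V : Type) [Finite V],
    (({G : SimpleGraph V | C4Free G}.ncard : ℕ) : ℝ) ≤
      Real.exp (C * (Nat.card V : ℝ) ^ (3 / 2 : ℝ))

/-- Row C: lattice orders are coded by graphs without four-cycles. -/
def StC : Prop :=
  ∀ (n : ℕ) (κ : Type) [Finite κ] (Λ : κ → Lattice (Fin n)),
    (∀ i j, (∀ x y : Fin n, (Λ i).le x y ↔ (Λ j).le x y) → i = j) →
    Nat.card κ ≤ {G : SimpleGraph (Fin n ⊕ Fin n) | C4Free G}.ncard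

end Vale.Agent.P183.R2.H668.KW
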