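import Mathlib
import Vale.Agent.P183.R2.H668.KW.Spec

/-!
Row A: the numerics.
-/

namespace Vale.Agent.P183.R2.H668.KW

open Finset

lemma log_pow_four (t : ℕ) (ht : 1 ≤ t) : (1 + Real.log t) ^ 4 ≤ 4096 * Real.sqrt t := by
  have ht' : (1 : ℝ) ≤ t := by exact_mod_cast ht
  set y : ℝ := (t : ℝ) ^ (1 / 8 : ℝ) with hy
  have hy0 : 0 < y := by positivity
  have h1 : Real.log t = 8 * Real.log y := by
    rw [hy, Real.log_rpow (by linarith)]
    ring
  have h2 : Real.log y ≤ y - 1 := Real.log_le_sub_one_of_pos hy0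
  have h3 : 1 + Real.log t ≤ 8 * y := by linarith
  have h4 : 0 ≤ 1 + Real.log t := by
    have := Real.log_nonneg ht'
    linarith
  have h5 : y ^ 4 = Real.sqrt t := by
    rw [hy, ← Real.rpow_natCast, ← Real.rpow_mul (by positivity), Real.sqrt_eq_rpow]
    norm_num
  calc (1 + Real.log t) ^ 4 ≤ (8 * y) ^ 4 := pow_le_pow_left₀ h4 h3 4
    _ = 4096 * y ^ 4 := by ring
    _ = _ := by rw [h5]

lemma sum_choose_le (t k : ℕ) : ∑ d ∈ range (k + 1), t.choose d ≤ (t + 1) ^ k := by
  rw [add_pow]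
  apply sum_le_sum
  intro d hd
  rw [mem_range] at hd
  have h1 : t.choose d ≤ t ^ d := Nat.choose_le_pow t d
  have h2 : 1 ≤ k.choose d := Nat.choose_pos (by omega)
  calc t.choose d ≤ t ^ d := h1
    _ = t ^ d * 1 ^ (k - d) * 1 := by simp
    _ ≤ t ^ d * 1 ^ (k - d) * k.choose d := by gcongr

lemma choose_le_exp (t δ R k : ℕ) (ht : 1 ≤ t) (hδ : 1 ≤ δ) (hR : R * δ ≤ 2 * t)
    (hk : k ≤ δ + 1) : (R.choose k : ℝ) ≤ Real.exp (5 * Real.sqrt t) := by
  set x := Real.sqrt t with hx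
  have ht' : (1 : ℝ) ≤ t := by exact_mod_cast ht
  have hx1 : 1 ≤ x := Real.one_le_sqrt.2 ht'
  have hx0 : 0 < x := by linarith
  have hxx : x * x = t := Real.mul_self_sqrt (by positivity)
  have hδ' : (1 : ℝ) ≤ δ := by exact_mod_cast hδ
  have hR' : (R : ℝ) * δ ≤ 2 * t := by exact_mod_cast hR
  have h1 : (R.choose k : ℝ) ≤ (R : ℝ) ^ k / k.factorial := Nat.choose_le_pow_div k R
  have h2 : (R : ℝ) ^ k / k.factorial = (R / x) ^ k * (x ^ k / k.factorial) := by
    rw [div_pow]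
    field_simp
  have h3 : x ^ k / k.factorial ≤ Real.exp x := Real.pow_div_factorial_le_exp x hx0.le k
  have h4 : (R : ℝ) / x ≤ 2 * x / δ := by
    rw [div_le_div_iff₀ hx0 (by linarith)]
    nlinarith
  have h5 : (R : ℝ) / x ≤ Real.exp (2 * x / δ) := by
    have := Real.add_one_le_exp (2 * x / δ)
    linarith
  have h6 : ((R : ℝ) / x) ^ k ≤ Real.exp (4 * x) := by
    calc ((R : ℝ) / x) ^ k ≤ (Real.exp (2 * x / δ)) ^ k := pow_le_pow_left₀ (by positivity) h5 k
      _ = Real.exp (k * (2 * x / δ)) := by rw [← Real.exp_nat_mul]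
      _ ≤ Real.exp (4 * x) := by
        apply Real.exp_le_exp.2
        have h7 : (k : ℝ) ≤ 2 * δ := by
          have : (k : ℝ) ≤ δ + 1 := by exact_mod_cast hk
          linarith
        have h8 : (k : ℝ) * (2 * x / δ) ≤ (2 * δ) * (2 * x / δ) := by gcongr
        have h9 : (2 * (δ : ℝ)) * (2 * x / δ) = 4 * x := by
          field_simp
          ring
        linarith
  calc (R.choose k : ℝ) ≤ (R / x) ^ k * (x ^ k / k.factorial) := by rw [← h2]; exact h1
    _ ≤ Real.exp (4 * x) * Real.exp x := by gcongr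
    _ = Real.exp (5 * x) := by
      rw [← Real.exp_add]
      ring_nf

lemma small_case (t δ : ℕ) (ht : 1 ≤ t) (h : (δ : ℝ) * (1 + Real.log t) ≤ Real.sqrt t) :
    ((t : ℝ) + 1) ^ (δ + 1) ≤ Real.exp (2 * Real.sqrt t) := by
  have ht' : (1 : ℝ) ≤ t := by exact_mod_cast ht
  set x := Real.sqrt t with hx
  have hx1 : 1 ≤ x := Real.one_le_sqrt.2 ht'
  have hxx : x * x = t := Real.mul_self_sqrt (by positivity)
  rcases Nat.eq_zero_or_pos δ with h0 | h0
  · rw [h0, zero_add, pow_one]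
    have h1 := Real.quadratic_le_exp_of_nonneg (show 0 ≤ 2 * x by linarith)
    nlinarith
  · have hδ : (1 : ℝ) ≤ δ := by exact_mod_cast h0
    have h1 : Real.log ((t : ℝ) + 1) ≤ 1 + Real.log t := by
      have h2 : Real.log ((t : ℝ) + 1) ≤ Real.log (Real.exp 1 * t) := by
        apply Real.log_le_log (by linarith)
        have := Real.add_one_le_exp (1 : ℝ)
        nlinarith
      rw [Real.log_mul (Real.exp_pos 1).ne' (by linarith), Real.log_exp] at h2
      exact h2
    have h3 : (t : ℝ) + 1 ≤ Real.exp (1 + Real.log t) := by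
      rw [← Real.exp_log (show (0 : ℝ) < t + 1 by linarith)]
      exact Real.exp_le_exp.2 h1
    calc ((t : ℝ) + 1) ^ (δ + 1) ≤ (Real.exp (1 + Real.log t)) ^ (δ + 1) :=
          pow_le_pow_left₀ (by linarith) h3 _
      _ = Real.exp ((δ + 1 : ℕ) * (1 + Real.log t)) := by rw [← Real.exp_nat_mul]
      _ ≤ Real.exp (2 * x) := by
        apply Real.exp_le_exp.2
        push_cast
        have h4 : 0 ≤ 1 + Real.log t := by
          have := Real.log_nonneg ht'
          linarith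
        nlinarith

/-- Row A. -/
theorem rowA (h1 : StA1) (h2 : StA2) : StA := by
  refine ⟨40000, by norm_num, fun V _ G hG T hE => ?_⟩
  classical
  have := Fintype.ofFinite V
  rw [← Real.sqrt_eq_rpow]
  rcases T.eq_empty_or_nonempty with rfl | hT
  · have h3 : nbhds G ∅ ⊆ {∅} := fun I hI => Finset.subset_empty.1 hI.1
    have h4 : (nbhds G ∅).ncard ≤ 1 := by
      rw [← Set.ncard_singleton (∅ : Finset V)]
      exact Set.ncard_le_ncard h3 (Set.toFinite _)
    have h5 : ((nbhds G ∅).ncard : ℝ) ≤ 1 := by exact_mod_cast h4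
    simpa using h5
  obtain ⟨v, hv, hmin⟩ := T.exists_min_image (fun x => {y | G.Adj x y}.ncard) hT
  obtain ⟨δ, hδ⟩ : ∃ δ, {y | G.Adj v y}.ncard = δ := ⟨_, rfl⟩
  obtain ⟨t, ht⟩ : ∃ t, T.card = t := ⟨_, rfl⟩
  have ht1 : 1 ≤ t := ht ▸ hT.card_pos
  have ht' : (1 : ℝ) ≤ t := by exact_mod_cast ht1
  rw [ht]
  set x := Real.sqrt t with hx
  have hx1 : 1 ≤ x := Real.one_le_sqrt.2 ht'
  have hxx : x * x = t := Real.mul_self_sqrt (by positivity)
  set L := 1 + Real.log t with hL
  have hL1 : 1 ≤ L := by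
    have := Real.log_nonneg ht'
    linarith
  have hL4 : L ^ 4 ≤ 4096 * x := log_pow_four t ht1
  let H : V → V → Prop := fun x y => x ≠ y ∧ ∃ w, G.Adj w x ∧ G.Adj w y
  have hsub : nbhds G T ⊆ (((range (δ + 2)).biUnion (fun d => (T.powersetCard d).filter
      (fun I => ∀ x ∈ I, ∀ y ∈ I, x ≠ y → ¬ H x y)) : Finset (Finset V)) : Set (Finset V)) := by
    rintro I ⟨hI1, hI2, hI3⟩
    rw [mem_coe, mem_biUnion]
    refine ⟨I.card, ?_, ?_⟩
    · rw [mem_range]
      have := hI2 v hv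
      omega
    · rw [mem_filter, mem_powersetCard]
      exact ⟨⟨hI1, rfl⟩, fun a ha b hb hab hH => hI3 a ha b hb hab hH.2⟩
  have hcard : (nbhds G T).ncard ≤ ∑ d ∈ range (δ + 2), ((T.powersetCard d).filter
      (fun I => ∀ x ∈ I, ∀ y ∈ I, x ≠ y → ¬ H x y)).card := by
    refine (Set.ncard_le_ncard hsub (Set.toFinite _)).trans ?_
    rw [Set.ncard_coe_finset]
    exact card_biUnion_le
  by_cases hcase : (δ : ℝ) * L ≤ x
  · have h3 : (nbhds G T).ncard ≤ (t + 1) ^ (δ + 1) := by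
      refine hcard.trans (le_trans ?_ (sum_choose_le t (δ + 1)))
      apply sum_le_sum
      intro d _
      rw [← ht, ← card_powersetCard]
      exact card_filter_le _ _
    have h4 : ((nbhds G T).ncard : ℝ) ≤ ((t : ℝ) + 1) ^ (δ + 1) := by exact_mod_cast h3
    refine h4.trans ((small_case t δ ht1 hcase).trans ?_)
    apply Real.exp_le_exp.2
    linarith
  -- the second case
  rw [not_le] at hcase
  have hδ1 : 1 ≤ δ := by
    by_contra h
    have h3 : δ = 0 := by omega
    rw [h3] at hcase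
    simp at hcase
    linarith
  have hδ' : (1 : ℝ) ≤ δ := by exact_mod_cast hδ1
  have hdeg : ∀ a ∈ T, δ ≤ (univ.filter (fun y => G.Adj a y)).card := by
    intro a ha
    have h3 := hmin a ha
    have h4 : (univ.filter (fun y => G.Adj a y)).card = {y | G.Adj a y}.ncard := by
      rw [← Set.ncard_coe_finset]
      congr 1
      ext y
      simp
    rw [h4, ← hδ]
    exact h3
  have hA2 := h2 V G hG T hE δ hδ1 hdeg
  rw [ht] at hA2
  set β : ℝ := (δ : ℝ) ^ 2 / (2 * t) with hβ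
  have hβ0 : 0 < β := by positivity
  have hβ1 : β ≤ 1 := by
    rcases Nat.lt_or_ge δ 2 with h | h
    · have h3 : δ = 1 := by omega
      rw [hβ, h3, div_le_one (by positivity)]
      norm_num
      linarith
    · obtain ⟨a, _, h3⟩ := hA2 T (Subset.refl _) (by rw [ht]; exact Nat.mul_le_mul_right t h) hT
      have h4 : ((T.filter (fun y => a ≠ y ∧ ∃ w, G.Adj w a ∧ G.Adj w y)).card : ℝ) ≤ t := by
        rw [← ht]
        exact_mod_cast card_filter_le _ _
      rw [ht] at h3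
      have h5 : β * t ≤ 1 * t := by linarith
      exact le_of_mul_le_mul_right h5 (by linarith)
  have hδt2 : δ ^ 2 ≤ 2 * t := by
    have h3 : (δ : ℝ) ^ 2 ≤ 2 * t := by
      rw [hβ, div_le_one (by positivity)] at hβ1
      exact hβ1
    exact_mod_cast h3
  have hδt : δ ≤ t := by
    rcases Nat.lt_or_ge δ 2 with h | h
    · omega
    · nlinarith
  have hδt' : (δ : ℝ) ≤ t := by exact_mod_cast hδt
  have hlogδ0 : 0 ≤ Real.log δ := Real.log_nonneg hδ'
  have hlogδ : Real.log δ ≤ L := by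
    have := Real.log_le_log (by linarith) hδt'
    linarith
  obtain ⟨R, hR⟩ : ∃ R, 2 * t / δ = R := ⟨_, rfl⟩
  have hRδ : R * δ ≤ 2 * t := by rw [← hR]; exact Nat.div_mul_le_self _ _
  have hRt : t ≤ δ * R := by
    have h3 : 2 * t < δ * (2 * t / δ + 1) := Nat.lt_mul_div_succ _ (by omega)
    rw [hR] at h3
    nlinarith
  have hRt' : (t : ℝ) ≤ δ * R := by exact_mod_cast hRt
  obtain ⟨q, hq⟩ : ∃ q, ⌈Real.log δ / β⌉₊ = q := ⟨_, rfl⟩
  have hq1 : Real.log δ / β ≤ q := by rw [← hq]; exact Nat.le_ceil _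
  have hq2 : (q : ℝ) ≤ Real.log δ / β + 1 := by
    rw [← hq]
    exact (Nat.ceil_lt_add_one (by positivity)).le
  have hq3 : (q : ℝ) ≤ 3 * L ^ 3 := by
    have h3 : Real.log δ / β ≤ 2 * L ^ 3 := by
      rw [div_le_iff₀ hβ0, hβ]
      have h4 : x ^ 2 ≤ (δ * L) ^ 2 := pow_le_pow_left₀ (by linarith) hcase.le 2
      have h5 : (t : ℝ) ≤ δ ^ 2 * L ^ 2 := by nlinarith
      have h6 : 2 * L ^ 3 * ((δ : ℝ) ^ 2 / (2 * t)) = L * (δ ^ 2 * L ^ 2) / t := by
        field_simp
      rw [h6, le_div_iff₀ (by linarith)]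
      have h7 : Real.log δ * t ≤ L * t := by gcongr
      have h8 : L * t ≤ L * (δ ^ 2 * L ^ 2) := by gcongr
      linarith
    have h4 : (1 : ℝ) ≤ L ^ 3 := one_le_pow₀ hL1
    linarith
  have hA1q : (1 - β) ^ q * (T.card : ℝ) ≤ (R : ℝ) := by
    rw [ht]
    have h3 : (1 - β) ^ q ≤ (δ : ℝ)⁻¹ := by
      calc (1 - β) ^ q ≤ (Real.exp (-β)) ^ q :=
            pow_le_pow_left₀ (by linarith) (Real.one_sub_le_exp_neg β) q
        _ = Real.exp (q * (-β)) := by rw [← Real.exp_nat_mul]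
        _ ≤ Real.exp (-Real.log δ) := by
          apply Real.exp_le_exp.2
          rw [div_le_iff₀ hβ0] at hq1
          linarith
        _ = (δ : ℝ)⁻¹ := by rw [Real.exp_neg, Real.exp_log (by linarith)]
    calc (1 - β) ^ q * (t : ℝ) ≤ (δ : ℝ)⁻¹ * t := by gcongr
      _ ≤ (δ : ℝ)⁻¹ * (δ * R) := by gcongr
      _ = R := by field_simp
  have hA1 := fun d => h1 V H (fun a b hab => ⟨hab.1.symm, hab.2.imp fun w hw => ⟨hw.2, hw.1⟩⟩)
    β R hβ0.le hβ1 T (by
      intro B' hB' hRB'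
      have h3 : 2 * t ≤ δ * B'.card := by
        have h4 : 2 * t < δ * (2 * t / δ + 1) := Nat.lt_mul_div_succ _ (by omega)
        rw [hR] at h4
        have h5 : δ * (R + 1) ≤ δ * B'.card := Nat.mul_le_mul_left δ hRB'
        omega
      obtain ⟨a, ha, h6⟩ := hA2 B' hB' h3 (card_pos.1 (by omega))
      refine ⟨a, ha, h6.trans (le_of_eq ?_)⟩
      congr!) q d hA1q
  rw [ht] at hA1
  have hterm : ∀ d ∈ range (δ + 2), ∀ s ∈ range (q + 1),
      ((t.choose s * R.choose (d - s) : ℕ) : ℝ) ≤ Real.exp (12293 * x) := by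
    intro d hd s hs
    rw [mem_range] at hd hs
    have h3 : (t.choose s : ℝ) ≤ Real.exp (12288 * x) := by
      calc (t.choose s : ℝ) ≤ (t : ℝ) ^ s := by exact_mod_cast Nat.choose_le_pow t s
        _ ≤ (t : ℝ) ^ q := pow_le_pow_right₀ ht' (by omega)
        _ ≤ (Real.exp L) ^ q := by
          apply pow_le_pow_left₀ (by linarith)
          rw [← Real.exp_log (show (0 : ℝ) < t by linarith)]
          apply Real.exp_le_exp.2
          linarith
        _ = Real.exp (q * L) := by rw [← Real.exp_nat_mul]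
        _ ≤ Real.exp (12288 * x) := by
          apply Real.exp_le_exp.2
          have h4 : (q : ℝ) * L ≤ 3 * L ^ 3 * L := by gcongr
          nlinarith
    have h5 : (R.choose (d - s) : ℝ) ≤ Real.exp (5 * x) :=
      choose_le_exp t δ R (d - s) ht1 hδ1 hRδ (by omega)
    calc ((t.choose s * R.choose (d - s) : ℕ) : ℝ) = (t.choose s : ℝ) * R.choose (d - s) := by
          push_cast
          rfl
      _ ≤ Real.exp (12288 * x) * Real.exp (5 * x) := by gcongr
      _ = Real.exp (12293 * x) := by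
        rw [← Real.exp_add]
        ring_nf
  have htotal : ((nbhds G T).ncard : ℝ) ≤ (δ + 2) * ((q + 1) * Real.exp (12293 * x)) := by
    have h3 : ((nbhds G T).ncard : ℝ) ≤
        ∑ d ∈ range (δ + 2), ∑ s ∈ range (q + 1), ((t.choose s * R.choose (d - s) : ℕ) : ℝ) := by
      have h4 : (nbhds G T).ncard ≤
          ∑ d ∈ range (δ + 2), ∑ s ∈ range (q + 1), t.choose s * R.choose (d - s) := by
        refine hcard.trans (sum_le_sum fun d _ => ?_)
        refine le_trans (le_of_eq ?_) (hA1 d)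
        congr!
      exact_mod_cast h4
    refine h3.trans ?_
    calc ∑ d ∈ range (δ + 2), ∑ s ∈ range (q + 1), ((t.choose s * R.choose (d - s) : ℕ) : ℝ)
        ≤ ∑ d ∈ range (δ + 2), ∑ s ∈ range (q + 1), Real.exp (12293 * x) :=
          sum_le_sum fun d hd => sum_le_sum fun s hs => hterm d hd s hs
      _ = (δ + 2) * ((q + 1) * Real.exp (12293 * x)) := by
        rw [sum_const, sum_const, card_range, card_range]
        simp
  refine htotal.trans ?_
  have h3 : (δ : ℝ) + 2 ≤ Real.exp (4 * x) := by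
    have h4 : x ≤ Real.exp x := by linarith [Real.add_one_le_exp x]
    have h5 : (3 : ℝ) ≤ Real.exp (2 * x) := by linarith [Real.add_one_le_exp (2 * x)]
    calc (δ : ℝ) + 2 ≤ 3 * (x * x) := by rw [hxx]; linarith
      _ ≤ Real.exp (2 * x) * (Real.exp x * Real.exp x) := by gcongr
      _ = Real.exp (4 * x) := by
        rw [← Real.exp_add, ← Real.exp_add]
        ring_nf
  have h6 : (q : ℝ) + 1 ≤ Real.exp (16384 * x) := by
    have h7 : (1 : ℝ) ≤ L ^ 4 := one_le_pow₀ hL1
    have h8 : L ^ 3 ≤ L ^ 4 := pow_le_pow_right₀ hL1 (by norm_num)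
    have h9 := Real.add_one_le_exp (16384 * x)
    linarith
  calc ((δ : ℝ) + 2) * ((q + 1) * Real.exp (12293 * x))
      ≤ Real.exp (4 * x) * (Real.exp (16384 * x) * Real.exp (12293 * x)) := by gcongr
    _ = Real.exp (28681 * x) := by
      rw [← Real.exp_add, ← Real.exp_add]
      ring_nf
    _ ≤ Real.exp (40000 * x) := by
      apply Real.exp_le_exp.2
      linarith

end Vale.Agent.P183.R2.H668.KW
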