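import Mathlib
import Vale.Agent.P183.R2.H668.KW.Spec

/-!
From the count of graphs without four-cycles to the count of lattices.
-/

namespace Vale.Agent.P183.R2.H668.KW

/-- The lattice structure carried over by a bijection. -/
abbrev carry {α β : Type} [Lattice α] (e : β ≃ α) : Lattice β :=
  letI : Max β := ⟨fun x y => e.symm (e x ⊔ e y)⟩
  letI : Min β := ⟨fun x y => e.symm (e x ⊓ e y)⟩
  letI : LE β := ⟨fun x y => e x ≤ e y⟩
  letI : LT β := ⟨fun x y => e x < e y⟩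
  Function.Injective.lattice e e.injective Iff.rfl Iff.rfl
    (fun _ _ => e.apply_symm_apply _) (fun _ _ => e.apply_symm_apply _)

/-- The number of isomorphism types of lattices with `n` elements. -/
theorem few_lattices (hB : StB) (hC : StC) : ∃ C : ℝ, 0 < C ∧
    ∀ (n : ℕ) (κ : Type) [Fintype κ] (L : κ → Type) [∀ k, Lattice (L k)],
      (∀ k, Finite (L k)) → (∀ k, Nat.card (L k) = n) →
      (∀ i j, Nonempty (L i ≃o L j) → i = j) →
      (Fintype.card κ : ℝ) ≤ Real.exp (C * (n : ℝ) ^ (3 / 2 : ℝ)) := by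
  obtain ⟨C, hC0, h1⟩ := hB
  refine ⟨C * (2 : ℝ) ^ (3 / 2 : ℝ), by positivity, fun n κ _ L _ hfin hcard hiso => ?_⟩
  have e : ∀ k, Nonempty (Fin n ≃ L k) := fun k => by
    have := hfin k
    exact ⟨(finCongr (hcard k).symm).trans (Finite.equivFin (L k)).symm⟩
  let f : ∀ k, Fin n ≃ L k := fun k => (e k).some
  let Λ : κ → Lattice (Fin n) := fun k => carry (f k)
  have h2 : ∀ i j, (∀ x y : Fin n, (Λ i).le x y ↔ (Λ j).le x y) → i = j := by
    intro i j h
    apply hiso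
    refine ⟨⟨(f i).symm.trans (f j), ?_⟩⟩
    intro a b
    have h3 := h ((f i).symm a) ((f i).symm b)
    change f i ((f i).symm a) ≤ f i ((f i).symm b) ↔
      f j ((f i).symm a) ≤ f j ((f i).symm b) at h3
    rw [Equiv.apply_symm_apply, Equiv.apply_symm_apply] at h3
    exact h3.symm
  have h3 := hC n κ Λ h2
  have h4 := h1 (Fin n ⊕ Fin n)
  have h5 : Nat.card (Fin n ⊕ Fin n) = 2 * n := by
    simp [Nat.card_eq_fintype_card]
    ring
  rw [h5] at h4
  have h6 : ((2 * n : ℕ) : ℝ) ^ (3 / 2 : ℝ) = (2 : ℝ) ^ (3 / 2 : ℝ) * (n : ℝ) ^ (3 / 2 : ℝ) := by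
    push_cast
    rw [Real.mul_rpow (by norm_num) (by positivity)]
  rw [h6] at h4
  calc (Fintype.card κ : ℝ) = (Nat.card κ : ℝ) := by rw [Nat.card_eq_fintype_card]
    _ ≤ (({G : SimpleGraph (Fin n ⊕ Fin n) | C4Free G}.ncard : ℕ) : ℝ) := by exact_mod_cast h3
    _ ≤ _ := h4
    _ = _ := by ring_nf

/-- The comparison of the two counts. -/
theorem compare (hB : StB) (hC : StC) : ∃ c : ℝ, 0 < c ∧
    ∀ (n N : ℕ), 1 ≤ n → (2 : ℝ) ^ ((n : ℝ) ^ (3 / 2 : ℝ) / 400) ≤ N →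
    ∀ (κ : Type) [Fintype κ] (L : κ → Type) [∀ k, Lattice (L k)],
      (∀ k, Nat.card (L k) = n) →
      (∀ i j, Nonempty (L i ≃o L j) → i = j) →
      (Fintype.card κ : ℝ) ^ c ≤ N := by
  obtain ⟨C, hC0, h1⟩ := few_lattices hB hC
  have hl2 : 0 < Real.log 2 := Real.log_pos (by norm_num)
  refine ⟨Real.log 2 / (400 * C), by positivity, fun n N hn hN κ _ L _ hcard hiso => ?_⟩
  have hfin : ∀ k, Finite (L k) := fun k => by
    apply Nat.finite_of_card_ne_zero
    rw [hcard k]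
    omega
  have h2 := h1 n κ L hfin hcard hiso
  calc (Fintype.card κ : ℝ) ^ (Real.log 2 / (400 * C))
      ≤ (Real.exp (C * (n : ℝ) ^ (3 / 2 : ℝ))) ^ (Real.log 2 / (400 * C)) :=
        Real.rpow_le_rpow (by positivity) h2 (by positivity)
    _ = (2 : ℝ) ^ ((n : ℝ) ^ (3 / 2 : ℝ) / 400) := by
        rw [← Real.exp_mul, Real.rpow_def_of_pos (by norm_num : (0 : ℝ) < 2)]
        congr 1
        field_simp
    _ ≤ N := hN

end Vale.Agent.P183.R2.H668.KW
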