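import Mathlib
import Vale.Agent.P183.R2.H668.KW.Spec

/-!
Row B: the recurrence over the vertices of least degree.
-/

namespace Vale.Agent.P183.R2.H668.KW

open Finset

/-- The graphs without four-cycles with all edges inside `T`. -/
def gr {V : Type} (T : Finset V) : Set (SimpleGraph V) :=
  {G | C4Free G ∧ ∀ x y, G.Adj x y → x ∈ T}

/-- Add the edges from `v` to `I`. -/
def addv {V : Type} (G : SimpleGraph V) (v : V) (I : Finset V) : SimpleGraph V where
  Adj x y := x ≠ y ∧ (G.Adj x y ∨ (x = v ∧ y ∈ I) ∨ (y = v ∧ x ∈ I))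
  symm := ⟨fun x y h => by
    obtain ⟨h1, h2⟩ := h
    refine ⟨h1.symm, ?_⟩
    rcases h2 with h | h | h
    · exact Or.inl h.symm
    · exact Or.inr (Or.inr h)
    · exact Or.inr (Or.inl h)⟩
  loopless := ⟨fun x h => h.1 rfl⟩

/-- Delete the edges at `v`. -/
def delv {V : Type} (G : SimpleGraph V) (v : V) : SimpleGraph V where
  Adj x y := G.Adj x y ∧ x ≠ v ∧ y ≠ v
  symm := ⟨fun _ _ h => ⟨h.1.symm, h.2.2, h.2.1⟩⟩
  loopless := ⟨fun x h => G.loopless.irrefl x h.1⟩

lemma gr_subset {V : Type} [Finite V] [DecidableEq V] (T : Finset V) (hT : T.Nonempty) :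
    gr T ⊆ ⋃ v ∈ T, ⋃ G' ∈ gr (T.erase v), addv G' v '' nbhds G' (T.erase v) := by
  classical
  have := Fintype.ofFinite V
  rintro G ⟨hG, hE⟩
  obtain ⟨v, hv, hmin⟩ := T.exists_min_image (fun x => {y | G.Adj x y}.ncard) hT
  simp only [Set.mem_iUnion]
  refine ⟨v, hv, delv G v, ⟨?_, ?_⟩, univ.filter (fun y => G.Adj v y), ⟨?_, ?_, ?_⟩, ?_⟩
  · intro a b x y hab h1 h2 h3 h4
    exact hG a b x y hab h1.1 h2.1 h3.1 h4.1
  · intro x y h
    exact mem_erase.2 ⟨h.2.1, hE x y h.1⟩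
  · intro y hy
    rw [mem_filter] at hy
    exact mem_erase.2 ⟨fun h => G.loopless.irrefl v (h ▸ hy.2), hE y v hy.2.symm⟩
  · intro x hx
    have h1 := hmin x (mem_of_mem_erase hx)
    have h2 : (univ.filter (fun y => G.Adj v y)).card = {y | G.Adj v y}.ncard := by
      rw [← Set.ncard_coe_finset]
      congr 1
      ext y
      simp
    rw [h2]
    refine h1.trans ?_
    have h3 : {y | G.Adj x y} ⊆ insert v {y | (delv G v).Adj x y} := by
      intro y hy
      by_cases hyv : y = v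
      · exact Or.inl hyv
      · exact Or.inr ⟨hy, ne_of_mem_erase hx, hyv⟩
    exact (Set.ncard_le_ncard h3 (Set.toFinite _)).trans (Set.ncard_insert_le _ _)
  · rintro x hx y hy hxy ⟨w, hw1, hw2⟩
    rw [mem_filter] at hx hy
    exact hxy (hG v w x y hw1.2.1.symm hx.2 hw1.1 hy.2 hw2.1)
  · ext x y
    constructor
    · rintro ⟨h1, h2 | ⟨h2, h3⟩ | ⟨h2, h3⟩⟩
      · exact h2.1
      · rw [mem_filter] at h3
        exact h2 ▸ h3.2
      · rw [mem_filter] at h3
        exact h2 ▸ h3.2.symm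
    · intro h
      refine ⟨G.ne_of_adj h, ?_⟩
      by_cases h1 : x = v
      · exact Or.inr (Or.inl ⟨h1, mem_filter.2 ⟨mem_univ _, h1 ▸ h⟩⟩)
      by_cases h2 : y = v
      · exact Or.inr (Or.inr ⟨h2, mem_filter.2 ⟨mem_univ _, h2 ▸ h.symm⟩⟩)
      exact Or.inl ⟨h, h1, h2⟩

lemma ncard_biUnion_le' {α β : Type} (s : Set α) (hs : s.Finite) (t : α → Set β)
    (ht : ∀ a ∈ s, (t a).Finite) (c : ℝ) (hc : ∀ a ∈ s, ((t a).ncard : ℝ) ≤ c) :
    (((⋃ a ∈ s, t a).ncard : ℕ) : ℝ) ≤ s.ncard * c := by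
  classical
  induction s, hs using Set.Finite.induction_on with
  | empty => simp
  | @insert a s ha hs ih =>
    rw [Set.biUnion_insert, Set.ncard_insert_of_notMem ha hs]
    have h1 := ih (fun b hb => ht b (Or.inr hb)) (fun b hb => hc b (Or.inr hb))
    have h2 : (((t a ∪ ⋃ x ∈ s, t x).ncard : ℕ) : ℝ) ≤
        ((t a).ncard : ℝ) + ((⋃ x ∈ s, t x).ncard : ℝ) := by
      exact_mod_cast Set.ncard_union_le _ _
    have h3 := hc a (Or.inl rfl)
    push_cast
    nlinarith

lemma gr_bound (C : ℝ) (hC : 0 < C) (V : Type) [Finite V]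
    (hA : ∀ (G : SimpleGraph V), C4Free G → ∀ T : Finset V, (∀ x y, G.Adj x y → x ∈ T) →
      ((nbhds G T).ncard : ℝ) ≤ Real.exp (C * (T.card : ℝ) ^ (1 / 2 : ℝ))) :
    ∀ (t : ℕ) (T : Finset V), T.card = t →
      (((gr T).ncard : ℕ) : ℝ) ≤ Real.exp ((C + 2) * (t * Real.sqrt t)) := by
  classical
  have := Fintype.ofFinite V
  intro t
  induction t with
  | zero =>
    intro T hT
    rw [card_eq_zero] at hT
    subst hT
    have h1 : gr (∅ : Finset V) ⊆ {⊥} := by
      rintro G ⟨_, h⟩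
      rw [Set.mem_singleton_iff]
      ext x y
      constructor
      · intro hxy
        exact absurd (h x y hxy) (notMem_empty x)
      · intro h
        exact absurd h (by simp)
    have h2 : (gr (∅ : Finset V)).ncard ≤ 1 := by
      rw [← Set.ncard_singleton (⊥ : SimpleGraph V)]
      exact Set.ncard_le_ncard h1 (Set.toFinite _)
    have h3 : (((gr (∅ : Finset V)).ncard : ℕ) : ℝ) ≤ 1 := by exact_mod_cast h2
    simpa using h3
  | succ t ih =>
    intro T hT
    have hne : T.Nonempty := by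
      rw [← card_pos, hT]
      omega
    have h1 : (((gr T).ncard : ℕ) : ℝ) ≤
        ((⋃ v ∈ (T : Set V), ⋃ G' ∈ gr (T.erase v), addv G' v '' nbhds G' (T.erase v)).ncard : ℝ) := by
      exact_mod_cast Set.ncard_le_ncard (gr_subset T hne) (Set.toFinite _)
    refine h1.trans ?_
    have h2 : ∀ v ∈ (T : Set V),
        ((⋃ G' ∈ gr (T.erase v), addv G' v '' nbhds G' (T.erase v)).ncard : ℝ) ≤
          Real.exp ((C + 2) * (t * Real.sqrt t)) * Real.exp (C * Real.sqrt t) := by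
      intro v hv
      have hcard : (T.erase v).card = t := by
        rw [card_erase_of_mem hv, hT]
        rfl
      refine (ncard_biUnion_le' (gr (T.erase v)) (Set.toFinite _) _
        (fun _ _ => Set.toFinite _) (Real.exp (C * Real.sqrt t)) ?_).trans ?_
      · rintro G' ⟨hG1, hG2⟩
        have h3 := hA G' hG1 (T.erase v) hG2
        rw [hcard, ← Real.sqrt_eq_rpow] at h3
        refine le_trans ?_ h3
        exact_mod_cast Set.ncard_image_le (Set.toFinite _)
      · exact mul_le_mul_of_nonneg_right (ih _ hcard) (Real.exp_pos _).le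
    refine (ncard_biUnion_le' (T : Set V) (Set.toFinite _) _ (fun _ _ => Set.toFinite _) _
      h2).trans ?_
    rw [Set.ncard_coe_finset, hT]
    have h4 : ((t + 1 : ℕ) : ℝ) ≤ Real.exp (2 * Real.sqrt ((t + 1 : ℕ) : ℝ)) := by
      have h5 : Real.sqrt ((t + 1 : ℕ) : ℝ) ≤ Real.exp (Real.sqrt ((t + 1 : ℕ) : ℝ)) := by
        linarith [Real.add_one_le_exp (Real.sqrt ((t + 1 : ℕ) : ℝ))]
      calc ((t + 1 : ℕ) : ℝ) = Real.sqrt ((t + 1 : ℕ) : ℝ) * Real.sqrt ((t + 1 : ℕ) : ℝ) :=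
            (Real.mul_self_sqrt (by positivity)).symm
        _ ≤ Real.exp (Real.sqrt ((t + 1 : ℕ) : ℝ)) * Real.exp (Real.sqrt ((t + 1 : ℕ) : ℝ)) := by
            gcongr
        _ = _ := by
            rw [← Real.exp_add]
            ring_nf
    have h6 : Real.sqrt t ≤ Real.sqrt ((t + 1 : ℕ) : ℝ) := by
      apply Real.sqrt_le_sqrt
      push_cast
      linarith
    calc ((t + 1 : ℕ) : ℝ) *
          (Real.exp ((C + 2) * (t * Real.sqrt t)) * Real.exp (C * Real.sqrt t))
        ≤ Real.exp (2 * Real.sqrt ((t + 1 : ℕ) : ℝ)) *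
          (Real.exp ((C + 2) * (t * Real.sqrt t)) * Real.exp (C * Real.sqrt t)) := by
          gcongr
      _ = Real.exp (2 * Real.sqrt ((t + 1 : ℕ) : ℝ) +
          ((C + 2) * (t * Real.sqrt t) + C * Real.sqrt t)) := by
          rw [Real.exp_add, Real.exp_add]
      _ ≤ _ := by
          apply Real.exp_le_exp.2
          have h7 : (t : ℝ) * Real.sqrt t ≤ t * Real.sqrt ((t + 1 : ℕ) : ℝ) := by gcongr
          have h8 : C * Real.sqrt t ≤ C * Real.sqrt ((t + 1 : ℕ) : ℝ) := by gcongr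
          have h9 : (C + 2) * (t * Real.sqrt t) ≤ (C + 2) * (t * Real.sqrt ((t + 1 : ℕ) : ℝ)) := by
            gcongr
          have h10 : (C + 2) * (((t + 1 : ℕ) : ℝ) * Real.sqrt ((t + 1 : ℕ) : ℝ)) =
              (C + 2) * (t * Real.sqrt ((t + 1 : ℕ) : ℝ)) + C * Real.sqrt ((t + 1 : ℕ) : ℝ) +
                2 * Real.sqrt ((t + 1 : ℕ) : ℝ) := by
            push_cast
            ring
          linarith

/-- Row B. -/
theorem rowB (hA : StA) : StB := by
  obtain ⟨C, hC, hA⟩ := hA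
  refine ⟨C + 2, by positivity, fun V _ => ?_⟩
  classical
  have := Fintype.ofFinite V
  have h1 := gr_bound C hC V (fun G => hA V G) (Fintype.card V) univ rfl
  have h2 : {G : SimpleGraph V | C4Free G} ⊆ gr univ := by
    intro G hG
    exact ⟨hG, fun x y _ => mem_univ x⟩
  have h3 : (({G : SimpleGraph V | C4Free G}.ncard : ℕ) : ℝ) ≤ ((gr (univ : Finset V)).ncard : ℝ) := by
    exact_mod_cast Set.ncard_le_ncard h2 (Set.toFinite _)
  refine h3.trans (h1.trans (le_of_eq ?_))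
  rw [Nat.card_eq_fintype_card]
  congr 2
  rw [Real.sqrt_eq_rpow]
  rcases Nat.eq_zero_or_pos (Fintype.card V) with h | h
  · rw [h]
    norm_num
  · have h5 : (0 : ℝ) < Fintype.card V := by exact_mod_cast h
    rw [show (3 / 2 : ℝ) = 1 + 1 / 2 by norm_num, Real.rpow_add h5, Real.rpow_one]

end Vale.Agent.P183.R2.H668.KW
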