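import Mathlib
import Vale.Agent.P183.R2.H668.KW.A
import Vale.Agent.P183.R2.H668.KW.B
import Vale.Agent.P183.R2.H442.KWA1
import Vale.Agent.P183.R2.H431.KWA2
import Vale.Agent.P183.R2.H212.KWC

/-!
The pieces put together: the number of graphs without four-cycles.
-/

namespace Vale.Agent.P183.R2.H668.KW

theorem rowB' : StB := rowB (rowA H442.rowA1 H431.KW.rowA2)

theorem rowC' : StC := H212.KWC.rowC

end Vale.Agent.P183.R2.H668.KW
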